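import Vale.Agent.P025.R2.H602.Der

/-!
# P025 (7.3) (b), G-BRANCH: the local contradiction in `F0 C` (helper680)
-/

open Polynomial

universe u

namespace P025H680

open P025H373

noncomputable section

section norms

/-- the norm of an integer prime to `p`. -/
theorem norm_natCast_eq_one {C : Type*} [NormedField C] [IsUltrametricDist C] {p : ℕ}
    (hp : p.Prime) (hpC : ‖(p : C)‖ < 1) {n : ℕ} (hn : ¬ p ∣ n) : ‖(n : C)‖ = 1 := by
  have hcop : IsCoprime (p : ℤ) (n : ℤ) := by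
    rw [Int.isCoprime_iff_gcd_eq_one]
    exact_mod_cast (Nat.Prime.coprime_iff_not_dvd hp).2 hn
  obtain ⟨a, b, hab⟩ := hcop
  have hZ : ∀ m : ℤ, ‖(m : C)‖ ≤ 1 := fun m => IsUltrametricDist.norm_intCast_le_one C m
  refine le_antisymm (IsUltrametricDist.norm_natCast_le_one C n) ?_
  by_contra hlt
  push Not at hlt
  have h1 : (a : C) * (p : C) + (b : C) * (n : C) = 1 := by exact_mod_cast congrArg (Int.cast (R := C)) hab
  have h2 : ‖(a : C) * (p : C) + (b : C) * (n : C)‖ < 1 := by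
    refine (IsUltrametricDist.norm_add_le_max _ _).trans_lt (max_lt ?_ ?_)
    · rw [norm_mul]
      exact mul_lt_one_of_nonneg_of_lt_one_right (hZ a) (norm_nonneg _) hpC
    · rw [norm_mul]
      exact mul_lt_one_of_nonneg_of_lt_one_right (hZ b) (norm_nonneg _) hlt
  rw [h1, norm_one] at h2
  exact lt_irrefl _ h2

variable {F : Type*} [NormedField F] [IsUltrametricDist F]

theorem norm_add_of_lt {a b : F} (h : ‖b‖ < ‖a‖) : ‖a + b‖ = ‖a‖ := by
  refine le_antisymm ((IsUltrametricDist.norm_add_le_max a b).trans (max_le le_rfl h.le)) ?_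
  by_contra hlt
  push Not at hlt
  have h1 : ‖(a + b) + (-b)‖ < ‖a‖ :=
    (IsUltrametricDist.norm_add_le_max _ _).trans_lt (max_lt hlt (by rwa [norm_neg]))
  rw [add_neg_cancel_right] at h1
  exact lt_irrefl _ h1

/-- `(1 + V) ^ p = 1 + V ^ p + p V r` with `‖r‖ ≤ 1`. -/
theorem one_add_pow_form {p : ℕ} (hp : p.Prime) {V : F} (hV : ‖V‖ ≤ 1) :
    ∃ r : F, ‖r‖ ≤ 1 ∧ (1 + V) ^ p = 1 + V ^ p + (p : F) * V * r := by
  have h1 : ∃ Q : ℤ[X], (1 + X) ^ p = 1 + X ^ p + (p : ℤ[X]) * X * Q := by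
    refine ⟨∑ i ∈ Finset.Ico 1 p, X ^ (i - 1) * ((p.choose i / p : ℕ) : ℤ[X]), ?_⟩
    have h3 : (1 + X : ℤ[X]) ^ p =
        ∑ i ∈ Finset.range (p + 1), X ^ i * ((p.choose i : ℕ) : ℤ[X]) := by
      rw [add_comm, add_pow]
      refine Finset.sum_congr rfl fun i _ => ?_
      rw [one_pow, mul_one]
    rw [h3, Finset.sum_range_succ, Finset.range_eq_Ico,
      Finset.sum_eq_sum_Ico_succ_bot (by have := hp.pos; omega : 0 < p), Finset.mul_sum]
    simp only [pow_zero, Nat.choose_zero_right, Nat.cast_one, mul_one, zero_add,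
      Nat.choose_self]
    have h4 : ∀ i ∈ Finset.Ico 1 p, X ^ i * ((p.choose i : ℕ) : ℤ[X]) =
        (p : ℤ[X]) * X * (X ^ (i - 1) * ((p.choose i / p : ℕ) : ℤ[X])) := by
      intro i hi
      rw [Finset.mem_Ico] at hi
      have hd : p.choose i = p * (p.choose i / p) :=
        (Nat.mul_div_cancel' (hp.dvd_choose_self (by omega) hi.2)).symm
      have hX : (X : ℤ[X]) ^ i = X * X ^ (i - 1) := by
        rw [← pow_succ']
        congr 1
        omega
      conv_lhs => rw [hd]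
      rw [hX, Nat.cast_mul]
      ring
    rw [Finset.sum_congr rfl h4]
    ring
  obtain ⟨Q, hQ⟩ := h1
  refine ⟨aeval V Q, ?_, ?_⟩
  · rw [aeval_eq_sum_range]
    refine IsUltrametricDist.norm_sum_le_of_forall_le_of_nonneg zero_le_one fun i _ => ?_
    rw [zsmul_eq_mul, norm_mul, norm_pow]
    exact mul_le_one₀ (IsUltrametricDist.norm_intCast_le_one F _) (by positivity)
      (pow_le_one₀ (norm_nonneg _) hV)
  · have h2 := congrArg (aeval V) hQ
    simpa using h2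

end norms

variable {C : Type u} [NontriviallyNormedField C] [IsUltrametricDist C] [CompleteSpace C]
  [IsAlgClosed C]

/-- `der (t ^ (-n)) = - n t ^ (-n-1)`. -/
theorem der_inv_pow (n : ℕ) :
    der C ((tt C)⁻¹ ^ n) = -((n : F0 C) * (tt C)⁻¹ ^ (n + 1)) := by
  rw [Derivation.leibniz_pow, Derivation.leibniz_inv, der_tt]
  rcases n with _ | n
  · simp
  · simp only [Nat.add_sub_cancel, nsmul_eq_mul, smul_eq_mul]
    ring

/-- proof: `D := (A - B)/(1 + l^p B)`, `U^p = 1 + l^p D`, `‖D - A‖ ≤ 1`, `‖der D‖ = R`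
(`der` of `κ t^{-n}` has norm `R` as `‖n‖ = 1`), and `‖der (U^p)‖ ≤ ‖p‖ ‖U - 1‖`
(`‖U‖ = 1`, `der U = der (U - 1)`), so `‖U - 1‖ ≥ ‖l‖ R > ‖l‖`; from
`U^p = (U - 1)^p + 1 + p (U - 1) r`, `‖r‖ ≤ 1` one gets `‖l‖^p R = ‖D‖ ‖l‖^p = ‖U - 1‖^p ≥ ‖l‖^p R^p`,
contradiction. -/
theorem core [CharZero C] {p : ℕ} (hp : p.Prime) (hpC : ‖(p : C)‖ < 1) {l : C}
    (hl : l ^ (p - 1) = -(p : C))
    {n : ℕ} (hn : ¬ p ∣ n) {R : ℝ} (hR : 1 < R) (hlR : ‖l‖ ^ p * R < 1) {κ : C} (hκ : ‖κ‖ = R)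
    {U A B : F0 C} (hB : ‖B‖ ≤ 1) (hA : ‖A - algebraMap C (F0 C) κ * (tt C)⁻¹ ^ n‖ < R)
    (h : U ^ p * (1 + algebraMap C (F0 C) l ^ p * B) = 1 + algebraMap C (F0 C) l ^ p * A) :
    False := by
  have hR0 : 0 < R := by linarith
  have hp0 : (p : C) ≠ 0 := by exact_mod_cast hp.ne_zero
  have hlne : l ≠ 0 := by
    rintro rfl
    rw [zero_pow (Nat.sub_ne_zero_of_lt hp.one_lt)] at hl
    exact hp0 (neg_eq_zero.1 hl.symm)
  have hl0 : 0 < ‖l‖ := norm_pos_iff.2 hlne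
  have hlp : ‖l‖ ^ (p - 1) = ‖(p : C)‖ := by rw [← norm_pow, hl, norm_neg]
  have hl1 : ‖l‖ < 1 := by
    by_contra h
    push Not at h
    have := one_le_pow₀ h (n := p - 1)
    rw [hlp] at this
    linarith
  have hlpp : 0 < ‖l‖ ^ p := pow_pos hl0 _
  have hlp1 : ‖l‖ ^ p < 1 := pow_lt_one₀ hl0.le hl1 hp.ne_zero
  set L := algebraMap C (F0 C) l with hLdef
  have hL : ‖L‖ = ‖l‖ := norm_algebraMap_C l
  have hLne : L ≠ 0 := norm_pos_iff.1 (by rw [hL]; exact hl0)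
  have hpF : ‖(p : F0 C)‖ = ‖l‖ ^ (p - 1) := by
    rw [hlp, ← norm_algebraMap_C (C := C) (p : C), map_natCast]
  have hpF0 : (p : F0 C) ≠ 0 := norm_pos_iff.1 (by rw [hpF]; positivity)
  set M := algebraMap C (F0 C) κ * (tt C)⁻¹ ^ n with hM
  have htt : ‖(tt C)⁻¹‖ = 1 := by rw [norm_inv, norm_tt, inv_one]
  have hMn : ‖M‖ = R := by
    rw [hM, norm_mul, norm_pow, htt, one_pow, mul_one, norm_algebraMap_C, hκ]
  -- derivative of the leading term
  have hdM : ‖der C M‖ = R := by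
    rw [hM, Derivation.leibniz, Derivation.map_algebraMap, smul_zero, add_zero, der_inv_pow,
      smul_eq_mul, norm_mul, norm_neg, norm_mul, norm_pow, htt, one_pow, mul_one,
      norm_algebraMap_C, hκ]
    have h1 : ‖(n : F0 C)‖ = 1 := by
      rw [← norm_natCast_eq_one hp hpC hn, ← norm_algebraMap_C (C := C) (n : C), map_natCast]
    rw [h1, mul_one]
  -- `A`
  have hAn : ‖A‖ = R := by
    have h1 : A = M + (A - M) := by ring
    rw [h1, norm_add_of_lt (by rw [hMn]; exact hA), hMn]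
  -- denominator
  have hLB : ‖L ^ p * B‖ < 1 := by
    rw [norm_mul, norm_pow, hL]
    exact mul_lt_one_of_nonneg_of_lt_one_left hlpp.le hlp1 hB
  have hden : ‖1 + L ^ p * B‖ = 1 := by
    rw [norm_add_of_lt (by rw [norm_one]; exact hLB), norm_one]
  have hden0 : 1 + L ^ p * B ≠ 0 := norm_pos_iff.1 (by rw [hden]; exact one_pos)
  set D := (A - B) / (1 + L ^ p * B) with hD
  have hUD : U ^ p = 1 + L ^ p * D := by
    rw [hD]
    field_simp
    linear_combination h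
  have hAB : ‖A - B‖ = R := by
    rw [sub_eq_add_neg, norm_add_of_lt (by rw [norm_neg, hAn]; linarith), hAn]
  have hDn : ‖D‖ = R := by rw [hD, norm_div, hden, div_one, hAB]
  have hDM : ‖D - M‖ < R := by
    have h1 : D - M = (A - M) + (-B + -(D * (L ^ p * B))) := by
      have : D * (1 + L ^ p * B) = A - B := by rw [hD, div_mul_cancel₀ _ hden0]
      linear_combination this
    rw [h1]
    refine (IsUltrametricDist.norm_add_le_max _ _).trans_lt (max_lt hA ?_)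
    refine (IsUltrametricDist.norm_add_le_max _ _).trans_lt (max_lt ?_ ?_)
    · rw [norm_neg]; linarith
    · rw [norm_neg, norm_mul, hDn]
      have : R * ‖L ^ p * B‖ < R * 1 := mul_lt_mul_of_pos_left hLB hR0
      linarith
  have hdD : ‖der C D‖ = R := by
    have h1 : der C D = der C M + der C (D - M) := by rw [← map_add]; congr 1; ring
    have h2 : ‖der C (D - M)‖ < ‖der C M‖ := by
      rw [hdM]
      exact (norm_der_le _).trans_lt hDM
    rw [h1, norm_add_of_lt h2, hdM]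
  -- norm of `U`
  have hLD : ‖L ^ p * D‖ = ‖l‖ ^ p * R := by rw [norm_mul, norm_pow, hL, hDn]
  have hUp : ‖U ^ p‖ = 1 := by
    rw [hUD, norm_add_of_lt (by rw [norm_one, hLD]; exact hlR), norm_one]
  have hU1 : ‖U‖ = 1 := by
    rw [norm_pow] at hUp
    exact (pow_eq_one_iff_of_nonneg (norm_nonneg _) hp.ne_zero).1 hUp
  -- derivative of `U ^ p`
  have hder : (p : F0 C) * (U ^ (p - 1) * der C U) = L ^ p * der C D := by
    have h1 := congrArg (der C) hUD
    have hLp : der C (L ^ p * D) = L ^ p * der C D := by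
      rw [hLdef, ← map_pow, ← Algebra.smul_def, ← Algebra.smul_def]
      exact (der C).map_smul _ _
    rw [Derivation.leibniz_pow, map_add, hLp, Derivation.map_one_eq_zero, zero_add,
      nsmul_eq_mul, smul_eq_mul] at h1
    exact h1
  have hder' : ‖l‖ ^ (p - 1) * ‖der C U‖ = ‖l‖ ^ p * R := by
    have h1 := congrArg norm hder
    rw [norm_mul, norm_mul, norm_pow, hU1, one_pow, one_mul, norm_mul, norm_pow, hL, hdD,
      hpF] at h1
    exact h1
  have hUV : ‖l‖ * R ≤ ‖U - 1‖ := by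
    have h1 : der C U = der C (U - 1) := by
      rw [map_sub, Derivation.map_one_eq_zero, sub_zero]
    have h2 : ‖l‖ ^ p = ‖l‖ ^ (p - 1) * ‖l‖ := by
      rw [← pow_succ, Nat.sub_add_cancel hp.one_le]
    rw [h2, mul_assoc] at hder'
    have h3 : ‖der C U‖ = ‖l‖ * R := mul_left_cancel₀ (by positivity) hder'
    rw [← h3, h1]
    exact norm_der_le _
  -- expansion of `U ^ p`
  set V := U - 1 with hV
  have hV1 : ‖V‖ ≤ 1 := by
    rw [hV, sub_eq_add_neg]
    refine (IsUltrametricDist.norm_add_le_max _ _).trans (max_le hU1.le ?_)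
    rw [norm_neg, norm_one]
  have hVl : ‖l‖ < ‖V‖ := lt_of_lt_of_le (by nlinarith) hUV
  have hV0 : 0 < ‖V‖ := hl0.trans hVl
  obtain ⟨r, hr, hexp⟩ := one_add_pow_form hp hV1
  have hUV2 : (1 + V) = U := by rw [hV]; ring
  rw [hUV2, hUD] at hexp
  have hLD2 : L ^ p * D = V ^ p + (p : F0 C) * V * r := by linear_combination hexp
  have hsmall : ‖(p : F0 C) * V * r‖ < ‖V ^ p‖ := by
    rw [norm_mul, norm_mul, hpF, norm_pow]
    have h1 : ‖V‖ ^ p = ‖V‖ ^ (p - 1) * ‖V‖ := by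
      rw [← pow_succ, Nat.sub_add_cancel hp.one_le]
    rw [h1]
    have h2 : ‖l‖ ^ (p - 1) < ‖V‖ ^ (p - 1) :=
      pow_lt_pow_left₀ hVl hl0.le (Nat.sub_ne_zero_of_lt hp.one_lt)
    calc ‖l‖ ^ (p - 1) * ‖V‖ * ‖r‖ ≤ ‖l‖ ^ (p - 1) * ‖V‖ * 1 :=
          mul_le_mul_of_nonneg_left hr (by positivity)
      _ = ‖l‖ ^ (p - 1) * ‖V‖ := mul_one _
      _ < ‖V‖ ^ (p - 1) * ‖V‖ := mul_lt_mul_of_pos_right h2 hV0
  have hfin : ‖l‖ ^ p * R = ‖V‖ ^ p := by
    rw [← hLD, hLD2, norm_add_of_lt hsmall, norm_pow]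
  have h3 : (‖l‖ * R) ^ p ≤ ‖l‖ ^ p * R := by
    rw [hfin]
    exact pow_le_pow_left₀ (by positivity) hUV p
  rw [mul_pow] at h3
  have h4 : R ^ p ≤ R := le_of_mul_le_mul_left h3 hlpp
  have h5 : R ^ 1 < R ^ p := pow_lt_pow_right₀ hR hp.one_lt
  rw [pow_one] at h5
  linarith

end

end P025H680
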