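import Vale.Agent.P025.R2.H587.HTDefs

/-!
# P025 (9.1): the system `c - a c'` for `a` in `Z_p` (helper680)
-/

universe u v

namespace P025H680

open P025H587

section div

variable {C : Type u} {K : Type v} [Field C] [Field K] [Algebra C K]

theorem divBy_mul {q : ℕ} {f g : K} (hf : DivBy C q f) (hg : DivBy C q g) :
    DivBy C q (f * g) := by
  intro O hO
  obtain ⟨a, ha⟩ := hf O hO
  obtain ⟨b, hb⟩ := hg O hO
  exact ⟨a * b, by rw [map_mul, ha, hb, map_mul, mul_pow]⟩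

theorem divBy_pow {q : ℕ} {f : K} (hf : DivBy C q f) (n : ℕ) : DivBy C q (f ^ n) := by
  intro O hO
  obtain ⟨a, ha⟩ := hf O hO
  exact ⟨a ^ n, by rw [map_pow, ha, map_pow, ← pow_mul, ← pow_mul, mul_comm]⟩

end div

section comb

variable {K : Type v} [Field K] {p : ℕ} [Fact p.Prime]

/-- the system `c - a c'` -/
noncomputable def comb (a : ℤ_[p]) (f f' : ℕ → K) (m : ℕ) : K :=
  f m * f' m ^ (PadicInt.appr (-a) m)

theorem comb_ne {a : ℤ_[p]} {f f' : ℕ → K} (hf : ∀ m, f m ≠ 0) (hf' : ∀ m, f' m ≠ 0) (m : ℕ) :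
    comb a f f' m ≠ 0 := mul_ne_zero (hf m) (pow_ne_zero _ (hf' m))

variable {C : Type u}

theorem isSys_comb [Field C] [Algebra C K] {f f' : ℕ → K} (hf : IsSys C p f)
    (hf' : IsSys C p f') (a : ℤ_[p]) : IsSys C p (comb a f f') where
  ne := comb_ne hf.ne hf'.ne
  div m := divBy_mul (hf.div m) (divBy_pow (hf'.div m) _)
  succ m := by
    obtain ⟨h, hh⟩ := hf.succ m
    obtain ⟨h', hh'⟩ := hf'.succ m
    have h1 : p ^ m ∣ PadicInt.appr (-a) (m + 1) - PadicInt.appr (-a) m :=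
      PadicInt.dvd_appr_sub_appr _ m (m + 1) (Nat.le_succ m)
    obtain ⟨d, hd⟩ := h1
    have h2 : PadicInt.appr (-a) (m + 1) = PadicInt.appr (-a) m + p ^ m * d := by
      have h3 : PadicInt.appr (-a) m ≤ PadicInt.appr (-a) (m + 1) :=
        PadicInt.appr_mono (-a) (Nat.le_succ m)
      omega
    refine ⟨h * f' m ^ d * h' ^ (PadicInt.appr (-a) (m + 1)), ?_⟩
    unfold comb
    rw [hh, hh', mul_pow, mul_pow, mul_pow, ← pow_mul, ← pow_mul, ← pow_mul,
      mul_comm (PadicInt.appr (-a) (m + 1)) (p ^ m)]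
    conv_lhs => rw [h2, pow_add]
    rw [mul_comm (p ^ m) d]
    conv_rhs => rw [h2]
    ring

theorem isTheta_comb [NontriviallyNormedField C] [Algebra C K] [Algebra ℚ_[p] C]
    (hnm : ∀ x : ℚ_[p], ‖algebraMap ℚ_[p] C x‖ = ‖x‖) {D : Derivation C K K} {f f' : ℕ → K}
    {θ θ' : K} (hf : ∀ m, f m ≠ 0) (hf' : ∀ m, f' m ≠ 0) (h : IsTheta p D f θ)
    (h' : IsTheta p D f' θ') (a : ℤ_[p]) :
    IsTheta p D (comb a f f') (θ - algebraMap C K (algebraMap ℚ_[p] C (a : ℚ_[p])) * θ') := by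
  intro w hw
  obtain ⟨A, hA⟩ := h w hw
  obtain ⟨A', hA'⟩ := h' w hw
  refine ⟨max A (max A' (w θ')), fun m => ?_⟩
  have hp : ‖(p : C)‖ = (p : ℝ)⁻¹ := by
    rw [← map_natCast (algebraMap ℚ_[p] C), hnm, Padic.norm_p]
  have hp0 : 0 < ‖(p : C)‖ := by
    rw [hp]
    exact inv_pos.2 (by exact_mod_cast (Fact.out : p.Prime).pos)
  have hpm : 0 < ‖(p : C)‖ ^ m := pow_pos hp0 m
  set e : ℕ := PadicInt.appr (-a) m with he
  -- the exponent
  have h1 : ‖((e : C) + algebraMap ℚ_[p] C (a : ℚ_[p]))‖ ≤ ‖(p : C)‖ ^ m := by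
    have h2 := PadicInt.appr_spec m (-a)
    rw [← PadicInt.norm_le_pow_iff_mem_span_pow, ← he] at h2
    have h3 : ((e : C) + algebraMap ℚ_[p] C (a : ℚ_[p])) =
        algebraMap ℚ_[p] C (-(((-a - (e : ℤ_[p]) : ℤ_[p])) : ℚ_[p])) := by
      have h7 : (((-a - (e : ℤ_[p]) : ℤ_[p])) : ℚ_[p]) = -(a : ℚ_[p]) - (e : ℚ_[p]) := by
        push_cast
        ring
      rw [h7, map_neg, map_sub, map_neg, map_natCast]
      ring
    rw [h3, hnm, norm_neg, hp]
    refine h2.trans (le_of_eq ?_)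
    rw [zpow_neg, zpow_natCast, inv_pow]
  have h1' : w ((e : K) + algebraMap C K (algebraMap ℚ_[p] C (a : ℚ_[p]))) ≤ ‖(p : C)‖ ^ m := by
    rw [← map_natCast (algebraMap C K) e, ← map_add, hw.const]
    exact h1
  have h4 : w (e : K) ≤ 1 := by
    rw [← map_natCast (algebraMap C K) e, hw.const, ← map_natCast (algebraMap ℚ_[p] C), hnm]
    exact_mod_cast PadicInt.norm_le_one (e : ℤ_[p])
  -- logarithmic derivative
  have h5 : D (comb a f f' m) / comb a f f' m = D (f m) / f m + (e : K) * (D (f' m) / f' m) := by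
    have hfm := hf m
    have hfm' := hf' m
    unfold comb
    rw [← he, Derivation.leibniz, Derivation.leibniz_pow, nsmul_eq_mul]
    simp only [smul_eq_mul]
    rcases Nat.eq_zero_or_pos e with h0 | h0
    · rw [h0]
      simp only [pow_zero, Nat.cast_zero]
      field_simp
      ring
    · obtain ⟨d, hd⟩ := Nat.exists_eq_succ_of_ne_zero h0.ne'
      rw [hd]
      simp only [Nat.succ_eq_add_one, Nat.add_sub_cancel]
      field_simp
      ring
  have h6 : D (comb a f f' m) / comb a f f' m -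
      (θ - algebraMap C K (algebraMap ℚ_[p] C (a : ℚ_[p])) * θ') =
      (D (f m) / f m - θ) + ((e : K) * (D (f' m) / f' m - θ') +
        ((e : K) + algebraMap C K (algebraMap ℚ_[p] C (a : ℚ_[p]))) * θ') := by
    rw [h5]; ring
  rw [h6]
  refine (hw.na _ _).trans (max_le ?_ ((hw.na _ _).trans (max_le ?_ ?_)))
  · exact (hA m).trans (mul_le_mul_of_nonneg_right (le_max_left _ _) hpm.le)
  · rw [map_mul]
    refine (mul_le_of_le_one_left (w.nonneg _) h4).trans ((hA' m).trans ?_)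
    exact mul_le_mul_of_nonneg_right ((le_max_left _ _).trans (le_max_right _ _)) hpm.le
  · rw [map_mul, mul_comm]
    refine mul_le_mul ?_ h1' (w.nonneg _) ?_
    · exact (le_max_right _ _).trans (le_max_right _ _)
    · exact (w.nonneg θ').trans ((le_max_right _ _).trans (le_max_right _ _))

/-- `θ_c = ψ θ_c'` : the form of `c - a c'` is `(ψ - a) θ_c'` -/
theorem isTheta_comb' [NontriviallyNormedField C] [Algebra C K] [Algebra ℚ_[p] C]
    (hnm : ∀ x : ℚ_[p], ‖algebraMap ℚ_[p] C x‖ = ‖x‖) {D : Derivation C K K} {f f' : ℕ → K}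
    {θ θ' ψ : K} (hf : ∀ m, f m ≠ 0) (hf' : ∀ m, f' m ≠ 0) (h : IsTheta p D f θ)
    (h' : IsTheta p D f' θ') (hψ : θ = ψ * θ') (a : ℤ_[p]) :
    IsTheta p D (comb a f f') ((ψ - algebraMap C K (algebraMap ℚ_[p] C (a : ℚ_[p]))) * θ') := by
  rw [sub_mul, ← hψ]
  exact isTheta_comb hnm hf hf' h h' a

end comb

end P025H680
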