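import Vale.Agent.P025.R2.H613.GenAlpha
import Vale.Agent.P025.R2.H666.Asm2
import Vale.Agent.P025.R2.H680.Comb

/-!
# P025 (9.1): `RNS` at all places over `ψ = α`, for almost all `α` in `Z_p` (helper680)
-/

open Vale.Agent.P019P P025H587 P025H450 P025H373 P025H666

universe u

namespace P025H680

/-- the prime `l1` of (9.1) -/
def l1 (p : ℕ) : ℕ := if p = 2 then 3 else 2

theorem isL_l1 {p : ℕ} (hp : p.Prime) : IsL p 2 (l1 p) := by
  unfold l1
  by_cases h : p = 2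
  · rw [if_pos h]
    refine ⟨Nat.prime_three, by omega, Or.inr ⟨⟨1, by rw [pow_one]; omega⟩, ?_⟩⟩
    rw [if_pos h]
  · rw [if_neg h]
    exact ⟨Nat.prime_two, fun h1 => h h1.symm, Or.inl (dvd_refl 2)⟩

variable {C : Type u} [NontriviallyNormedField C] [IsUltrametricDist C] [CompleteSpace C]
  [IsAlgClosed C] [CharZero C]

theorem rns_over_value {p : ℕ} [Fact p.Prime] [Algebra ℚ_[p] C]
    (hnm : ∀ x : ℚ_[p], ‖algebraMap ℚ_[p] C x‖ = ‖x‖) (hLemA : LemA C p)
    (K : Type u) [Field K] [Algebra C K] [CFF C K] {D : Derivation C K K} (hD : D ≠ 0)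
    {f f' : ℕ → K} (hf : IsSys C p f) (hf' : IsSys C p f') {θ θ' : K} (hθ : IsTheta p D f θ)
    (hθ' : IsTheta p D f' θ') (hθ'0 : θ' ≠ 0) (hne : ∀ a : C, θ ≠ algebraMap C K a * θ') :
    {α : ℤ_[p] | ∃ P : Plk C K,
      0 < ord P (θ / θ' - algebraMap C K (algebraMap ℚ_[p] C (α : ℚ_[p]))) ∧
        ¬ RNS p (l1 p) C K P}.Finite := by
  have hcharK : CharZero K := charZero_of_injective_algebraMap (algebraMap C K).injective
  have hψ : ∀ a : C, θ / θ' ≠ algebraMap C K a := by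
    intro a h
    refine hne a ?_
    rw [← h, div_mul_cancel₀ _ hθ'0]
  obtain ⟨A, hA, h⟩ := P025H613.generic_alpha (k := C) (K := K) hD hψ hθ'0 (B := ∅)
    Set.finite_empty
  have hinj : Function.Injective fun α : ℤ_[p] => algebraMap ℚ_[p] C (α : ℚ_[p]) :=
    fun a b hab => Subtype.ext ((algebraMap ℚ_[p] C).injective hab)
  refine (hA.preimage hinj.injOn).subset ?_
  rintro α ⟨P, hP, hR⟩
  by_contra hα
  have hα' : algebraMap ℚ_[p] C (α : ℚ_[p]) ∉ A := hα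
  obtain ⟨-, -, -, -, h2⟩ := h _ hα' P hP
  refine hR (hLemA K D (comb α f f') _ hD (isSys_comb hf hf' α)
    (isTheta_comb' hnm hf.ne hf'.ne hθ hθ' (div_mul_cancel₀ θ hθ'0).symm α) ?_ P 2 le_rfl
    (fun s hs => ?_) _ (isL_l1 Fact.out))
  · exact mul_ne_zero (sub_ne_zero.2 (hψ _)) hθ'0
  · rw [h2 s hs]
    norm_num

end P025H680
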